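import Vale.Agent.P097.TC.Defs

/-!
# P097 / case [c] / block (W): literal Props, in STRAIGHT coordinates at one nested point, unit scale

`z = (s, w)`, `s = t - Ψ w` (translated and divided by the macroscopic scale), base quadrant
`Qu = {Im s < 0 < Im w}` (there `θ_j` lives), wide tube `Wd δ = {0 < Im w, Im s < δ Im w}`
(there the line `L_k = (al, p)` lives).
-/

set_option linter.all false

open Complex Metric Filter Topology Set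
open scoped ComplexConjugate

namespace Vale.Agent.P097.H226.W

open Vale.Agent.P097.TC

/-- growth of the curve, every exponent (A5.GROWTH, output of 275 / 348 `out_all`) -/
def Grw (b : ℝ) (F q : ℂ → ℂ) : Prop := ∀ a : ℝ, 0 < a → ∃ C : ℝ, ∀ x ∈ Sb b,
  ‖F x - 2 * Real.pi * x‖ ≤ Real.exp (C * (b - |x.im|) ^ (-a)) ∧
  ‖deriv F x‖ ≤ Real.exp (C * (b - |x.im|) ^ (-a)) ∧
  ‖q x‖ ≤ Real.exp (Real.exp (C * (b - |x.im|) ^ (-a))) ∧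
  ‖deriv q x‖ ≤ Real.exp (Real.exp (C * (b - |x.im|) ^ (-a)))

/-- box -/
def Bx (ρ : ℝ) : Set (ℂ × ℂ) :=
  {z | |z.1.re| < ρ ∧ |z.1.im| < ρ ∧ |z.2.re| < ρ ∧ |z.2.im| < ρ}

/-- base quadrant -/
def Qu : Set (ℂ × ℂ) := {z | z.1.im < 0 ∧ 0 < z.2.im}

/-- wide tube -/
def Wd (δ : ℝ) : Set (ℂ × ℂ) := {z | 0 < z.2.im ∧ z.1.im < δ * z.2.im}

/-- quadrant world in straight coordinates -/
structure SQ (Λ b : ℝ) (F q : ℂ → ℂ) (ρ : ℝ) (al p th : ℂ × ℂ → ℂ) : Prop where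
  cv : Cv Λ b F q
  gr : Grw b F q
  dal : DifferentiableOn ℂ al (Bx ρ ∩ Qu)
  dp : DifferentiableOn ℂ p (Bx ρ ∩ Qu)
  dth : DifferentiableOn ℂ th (Bx ρ ∩ Qu)
  mem : ∀ z ∈ Bx ρ ∩ Qu, th z ∈ Sb b
  inc : ∀ z ∈ Bx ρ ∩ Qu, Mi F q (al z) (p z) (th z) = 0
  smp : ∀ z ∈ Bx ρ ∩ Qu, deriv (Mi F q (al z) (p z)) (th z) ≠ 0

/-- local world in straight coordinates: the line `L_k` lives on the wide tube -/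
structure SW (Λ b : ℝ) (F q : ℂ → ℂ) (δ ρ : ℝ) (al p th : ℂ × ℂ → ℂ) : Prop where
  sq : SQ Λ b F q ρ al p th
  δ0 : 0 < δ
  dal : DifferentiableOn ℂ al (Bx ρ ∩ Wd δ)
  dp : DifferentiableOn ℂ p (Bx ρ ∩ Wd δ)

/-- `log E_j ^ 2` -/
noncomputable def gg (F : ℂ → ℂ) (al th : ℂ × ℂ → ℂ) (z : ℂ × ℂ) : ℂ := 2 * I * (al z - F (th z))

/-- axis point of depth `h` -/
noncomputable def ax (h : ℝ) : ℂ × ℂ := (-((h : ℂ) * I), (h : ℂ) * I)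

/-- `log |E_j| ^ 2` at the axis point of depth `h` -/
noncomputable def Vq (F : ℂ → ℂ) (al th : ℂ × ℂ → ℂ) (h : ℝ) : ℝ := (gg F al th (ax h)).re

/-- the window of scale `h` is mid-level (and not R2): at bounded distance from the axis point -/
def Md (b : ℝ) (F : ℂ → ℂ) (th : ℂ × ℂ → ℂ) (X om e h : ℝ) : Prop :=
  ∃ β : ℂ × ℂ, om * h ≤ -β.1.im ∧ om * h ≤ β.2.im ∧ ‖β‖ ≤ X * h ∧
    |(th β).im| ≤ b - e ∧ e ≤ ‖deriv F (th β)‖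

/-- **row LAT** (helper19): one-sided bounds at all points of relative depth `ω` at scale `h` -/
def Lat : Prop := ∀ {Λ b : ℝ} {F q : ℂ → ℂ}, Cv Λ b F q → Grw b F q →
  ∀ a : ℝ, 0 < a → ∀ e X om : ℝ, 0 < e → 1 ≤ X → 0 < om → om ≤ 1 →
  ∃ K : ℝ, 1 ≤ K ∧ ∃ N : ℝ, 1 ≤ N ∧ ∀ {al p th : ℂ × ℂ → ℂ}, SQ Λ b F q 1 al p th →
  ∀ h : ℝ, 0 < h → (X + 4) * h ≤ 1 → Md b F th X om e h →
  ∀ ω : ℝ, 0 < ω → ω ≤ 1 → ∀ z : ℂ × ℂ, ω * h ≤ -z.1.im → ω * h ≤ z.2.im → ‖z‖ ≤ X * h →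
  ∀ sg : ℝ, (sg = 1 ∨ sg = -1) →
    sg * (gg F al th z).re ≤ K * ω⁻¹ ^ N * (1 + max (sg * Vq F al th h) 0) ∧
    ‖exp (sg * I * al z)‖ ≤
      Real.exp (K * ω⁻¹ ^ N * (1 + max (sg * Vq F al th h) 0) + Real.exp (K * ω⁻¹ ^ a)) ∧
    ‖2 * p z * exp (sg * I * al z)‖ ≤
      Real.exp (K * ω⁻¹ ^ N * (1 + max (sg * Vq F al th h) 0) + Real.exp (K * ω⁻¹ ^ a))

/-- **block (W)** : bounds on the compacts of the wide tube at a record window -/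
def PW : Prop := ∀ {Λ b : ℝ} {F q : ℂ → ℂ}, Cv Λ b F q → Grw b F q →
  ∀ δ X om e V₁ K₁ : ℝ, 0 < δ → 1 ≤ X → 0 < om → om ≤ 1 → 0 < e → 0 ≤ V₁ → 1 ≤ K₁ →
  ∀ W : Set (ℂ × ℂ), IsCompact W → W ⊆ Wd δ →
  ∃ C : ℝ, 0 ≤ C ∧ ∃ τ : ℝ, 0 < τ ∧ τ ≤ 1 ∧ ∃ Z : Set (ℂ × ℂ), IsCompact Z ∧ Z ⊆ Bx 1 ∩ Wd δ ∧
  ∀ {al p th : ℂ × ℂ → ℂ}, SW Λ b F q δ 1 al p th → ∀ r : ℝ, 0 < r → r ≤ τ →
  (∀ h : ℝ, r ≤ h → (X + 4) * h ≤ 1 → Md b F th X om e h) →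
  (∀ i : ℕ, 2 ^ i * r ≤ τ → |Vq F al th (2 ^ i * r)| ≤ K₁ * |Vq F al th r| + V₁) →
  ∀ sg : ℝ, (sg = 1 ∨ sg = -1) → sg * Vq F al th r ≤ V₁ →
  ∀ A : ℝ, 0 ≤ A → (∀ z ∈ Z, ‖exp (sg * I * al z)‖ ≤ Real.exp A ∧
    ‖2 * p z * exp (sg * I * al z)‖ ≤ Real.exp A) →
  ∀ z ∈ W, (r : ℂ) • z ∈ Bx 1 ∧ ‖exp (sg * I * al ((r : ℂ) • z))‖ ≤ Real.exp (C + C * r * A) ∧
    ‖2 * p ((r : ℂ) • z) * exp (sg * I * al ((r : ℂ) • z))‖ ≤ Real.exp (C + C * r * A)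

end Vale.Agent.P097.H226.W
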