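import Vale.Agent.P097.H226.W.Defs
import Vale.Agent.P097.TC.Defs5

/-!
# P097 / block (W): the two bridges from the world `A5.W5` to the straight coordinates
-/

set_option linter.all false

open Complex Metric Filter Topology Set MeasureTheory
open scoped ComplexConjugate

namespace Vale.Agent.P097.H226.W

open Vale.Agent.P097.TC Vale.Agent.P097.H85 Vale.Agent.P097.H929 Vale.Agent.P097.A5

/-- straight coordinates over `(y, u)` at the scale `ρ` -/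
noncomputable def StM (P : ℝ → ℂ) (Ψ : ℂ → ℂ) (y u ρ : ℝ) (z : ℂ × ℂ) : ℂ × ℂ :=
  (((y - (P u).re : ℝ) : ℂ) + ρ * z.1 + Ψ (u + ρ * z.2), (u : ℂ) + ρ * z.2)

/-- **row W-INST** (helper320, 560, 282): the world in straight coordinates -/
def Inst : Prop := ∀ {Λ H : ℝ} {F q : ℂ → ℂ} {b m : ℝ} {Ψ : ℂ → ℂ} {Mj Mk B : Set (ℂ × ℂ)}
  {A : Set ℝ} {P : ℝ → ℂ} {c k : ℝ → ℝ} {K y₀ u₀ σ s : ℝ} {al p th : ℂ × ℂ → ℂ} {J : ℂ → ℂ},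
  W5 Λ H F q b m Ψ Mj Mk B A P c k K y₀ u₀ σ s al p th J → ∀ γ : ℝ, 0 < γ →
  ∃ d : ℝ, 0 < d ∧ ∀ u ∈ A, |u - u₀| < d → ∀ y : ℝ, |y - y₀| < d → ∀ ρ : ℝ, 0 < ρ → ρ ≤ d →
    SQ Λ H F q 1 (fun z => al (StM P Ψ y u ρ z)) (fun z => p (StM P Ψ y u ρ z))
      (fun z => th (StM P Ψ y u ρ z)) ∧
    ∀ δ : ℝ, 0 < δ → δ ≤ s - k u - γ →
      SW Λ H F q δ 1 (fun z => al (StM P Ψ y u ρ z)) (fun z => p (StM P Ψ y u ρ z))
        (fun z => th (StM P Ψ y u ρ z))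

/-- **row W-BRG** (helper244, 830): nested points in straight coordinates, comparison of the values
of `log |E_j| ^ 2` on the vertical over the real label and on the axis of the quadrant -/
def Brg : Prop := ∀ {Λ H : ℝ} {F q : ℂ → ℂ} {b m : ℝ} {Ψ : ℂ → ℂ} {Mj Mk B : Set (ℂ × ℂ)}
  {A : Set ℝ} {P : ℝ → ℂ} {c k : ℝ → ℝ} {K y₀ u₀ σ s : ℝ} {al p th : ℂ × ℂ → ℂ} {J : ℂ → ℂ},
  W5 Λ H F q b m Ψ Mj Mk B A P c k K y₀ u₀ σ s al p th J → ∀ C c₁ : ℝ, 0 < C → 0 < c₁ →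
  ∃ X om e K₃ d : ℝ, 1 ≤ X ∧ 0 < om ∧ om ≤ 1 ∧ 0 < e ∧ 1 ≤ K₃ ∧ 0 < d ∧ d ≤ 1 ∧
    ∀ u ∈ A, |u - u₀| < d → ∀ y : ℝ, |y - y₀| < d → ∀ h : ℝ, Nst H b F P th C c₁ h y u →
    ∀ ρ : ℝ, 0 < ρ → ρ ≤ d → ρ ≤ d * h → ∀ t : ℝ, 0 < t → t ≤ 1 →
      Md H F (fun z => th (StM P Ψ y u ρ z)) X om e t ∧
      ∀ sg : ℝ, (sg = 1 ∨ sg = -1) →
        sg * Vq F (fun z => al (StM P Ψ y u ρ z)) (fun z => th (StM P Ψ y u ρ z)) t ≤
          K₃ * (1 + max (sg * (-2 * (del F al th (vp P y u (ρ * t))).im)) 0) ∧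
        sg * (-2 * (del F al th (vp P y u (ρ * t))).im) ≤
          K₃ * (1 + max (sg * Vq F (fun z => al (StM P Ψ y u ρ z))
            (fun z => th (StM P Ψ y u ρ z)) t) 0)

end Vale.Agent.P097.H226.W
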