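import Mathlib

/-!
# P097 / block (W): elementary growth bounds
-/

set_option linter.all false

open Finset Filter Topology

namespace Vale.Agent.P097.H226.W

theorem pow_bound (m : ℕ) : ∃ C : ℝ, 0 ≤ C ∧ ∀ l : ℕ, ((l : ℝ) + 1) ^ m * (1 / 2) ^ l ≤ C * 0.6 ^ l := by
  have h1 : Tendsto (fun n : ℕ => (n : ℝ) ^ m * (5 / 6 : ℝ) ^ n) atTop (𝓝 0) :=
    tendsto_pow_const_mul_const_pow_of_abs_lt_one m (by rw [abs_of_pos (by norm_num)]; norm_num)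
  obtain ⟨C, hC⟩ := h1.bddAbove_range
  refine ⟨max C 0 * (6 / 5), by positivity, fun l => ?_⟩
  have h2 : ((l + 1 : ℕ) : ℝ) ^ m * (5 / 6 : ℝ) ^ (l + 1) ≤ C := hC ⟨l + 1, rfl⟩
  have h3 : ((l : ℝ) + 1) ^ m * (5 / 6 : ℝ) ^ l ≤ max C 0 * (6 / 5) := by
    have h4 : ((l : ℝ) + 1) ^ m * (5 / 6 : ℝ) ^ l =
        (((l + 1 : ℕ) : ℝ) ^ m * (5 / 6 : ℝ) ^ (l + 1)) * (6 / 5) := by
      push_cast
      rw [pow_succ (5 / 6 : ℝ)]
      ring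
    rw [h4]
    have := le_max_left C 0
    nlinarith
  have e1 : (1 / 2 : ℝ) ^ l = (5 / 6) ^ l * 0.6 ^ l := by rw [← mul_pow]; norm_num
  calc ((l : ℝ) + 1) ^ m * (1 / 2) ^ l = (((l : ℝ) + 1) ^ m * (5 / 6) ^ l) * 0.6 ^ l := by
        rw [e1]; ring
    _ ≤ max C 0 * (6 / 5) * 0.6 ^ l := by gcongr

theorem rpow_bound {K c N : ℝ} (hK : 0 ≤ K) (hc : 0 < c) (hN : 0 ≤ N) :
    ∃ C : ℝ, 0 ≤ C ∧ ∀ l : ℕ, K * (c * ((l : ℝ) + 1) ^ 2) ^ N * (1 / 2) ^ l ≤ C * 0.6 ^ l := by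
  obtain ⟨m, hm⟩ := exists_nat_ge N
  obtain ⟨C, hC0, hC⟩ := pow_bound (2 * m)
  refine ⟨K * (max c 1) ^ m * C, by positivity, fun l => ?_⟩
  have h0 : (1 : ℝ) ≤ (l : ℝ) + 1 := by linarith [(Nat.cast_nonneg l : (0 : ℝ) ≤ l)]
  have h1 : c * ((l : ℝ) + 1) ^ 2 ≤ max c 1 * ((l : ℝ) + 1) ^ 2 := by
    have := le_max_left c 1
    gcongr
  have h2 : (1 : ℝ) ≤ max c 1 * ((l : ℝ) + 1) ^ 2 := by
    have h3 := le_max_right c 1
    have h4 : (1 : ℝ) ≤ ((l : ℝ) + 1) ^ 2 := one_le_pow₀ h0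
    nlinarith
  have h3 : (c * ((l : ℝ) + 1) ^ 2) ^ N ≤ (max c 1) ^ m * ((l : ℝ) + 1) ^ (2 * m) := by
    calc (c * ((l : ℝ) + 1) ^ 2) ^ N ≤ (max c 1 * ((l : ℝ) + 1) ^ 2) ^ N :=
          Real.rpow_le_rpow (by positivity) h1 hN
      _ ≤ (max c 1 * ((l : ℝ) + 1) ^ 2) ^ (m : ℝ) := Real.rpow_le_rpow_of_exponent_le h2 hm
      _ = _ := by rw [Real.rpow_natCast, mul_pow, ← pow_mul]
  calc K * (c * ((l : ℝ) + 1) ^ 2) ^ N * (1 / 2) ^ l ≤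
        K * ((max c 1) ^ m * ((l : ℝ) + 1) ^ (2 * m)) * (1 / 2) ^ l := by gcongr
    _ = K * (max c 1) ^ m * (((l : ℝ) + 1) ^ (2 * m) * (1 / 2) ^ l) := by ring
    _ ≤ K * (max c 1) ^ m * (C * 0.6 ^ l) := by
        have := hC l
        gcongr
    _ = _ := by ring

theorem exp_bound {K c : ℝ} (hK : 0 ≤ K) (hc : 0 < c) :
    ∃ C : ℝ, 0 ≤ C ∧ ∀ l : ℕ, Real.exp (K * (c * ((l : ℝ) + 1) ^ 2) ^ ((1 : ℝ) / 4)) * (1 / 2) ^ l ≤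
      C * 0.6 ^ l := by
  set D := K * c ^ ((1 : ℝ) / 4) with hD
  have hD0 : 0 ≤ D := by positivity
  refine ⟨Real.exp (2.5 * D ^ 2 + 0.1), (Real.exp_pos _).le, fun l => ?_⟩
  have h0 : (0 : ℝ) ≤ (l : ℝ) + 1 := by positivity
  have h1 : K * (c * ((l : ℝ) + 1) ^ 2) ^ ((1 : ℝ) / 4) = D * √((l : ℝ) + 1) := by
    rw [Real.mul_rpow hc.le (by positivity), ← Real.rpow_natCast, ← Real.rpow_mul h0,
      Real.sqrt_eq_rpow, hD]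
    norm_num
    ring
  have h2 : D * √((l : ℝ) + 1) ≤ 2.5 * D ^ 2 + 0.1 * ((l : ℝ) + 1) := by
    have h3 := Real.sq_sqrt h0
    have h4 := sq_nonneg (D * 5 - √((l : ℝ) + 1))
    nlinarith
  rw [h1]
  have h3 : Real.exp (D * √((l : ℝ) + 1)) ≤ Real.exp (2.5 * D ^ 2 + 0.1) * Real.exp 0.1 ^ l := by
    rw [← Real.exp_nat_mul, ← Real.exp_add]
    apply Real.exp_le_exp.mpr
    nlinarith
  have h4 : Real.exp 0.1 ≤ 1.2 := by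
    have h5 := Real.exp_bound' (x := 0.1) (by norm_num) (by norm_num) (n := 3) (by norm_num)
    refine h5.trans ?_
    norm_num [Finset.sum_range_succ, Nat.factorial]
  calc Real.exp (D * √((l : ℝ) + 1)) * (1 / 2) ^ l ≤
        Real.exp (2.5 * D ^ 2 + 0.1) * Real.exp 0.1 ^ l * (1 / 2) ^ l := by gcongr
    _ ≤ Real.exp (2.5 * D ^ 2 + 0.1) * 1.2 ^ l * (1 / 2) ^ l := by gcongr
    _ = Real.exp (2.5 * D ^ 2 + 0.1) * 0.6 ^ l := by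
        rw [mul_assoc, ← mul_pow]
        norm_num

theorem geo_le (n : ℕ) : ∑ l ∈ range n, (0.6 : ℝ) ^ l ≤ 2.5 := by
  have h1 : ∀ n : ℕ, ∑ l ∈ range n, (0.6 : ℝ) ^ l = (1 - 0.6 ^ n) / 0.4 := by
    intro n
    rw [geom_sum_eq (by norm_num)]
    norm_num
    ring
  rw [h1, div_le_iff₀ (by norm_num)]
  have : (0 : ℝ) < 0.6 ^ n := by positivity
  linarith

/-- `∑ 1 / (k + 1) ^ 2 ≤ 2` -/
theorem sum_sq (n : ℕ) : ∑ k ∈ range n, 1 / ((k : ℝ) + 1) ^ 2 ≤ 2 := by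
  have h1 : ∀ n : ℕ, ∑ k ∈ range (n + 1), 1 / ((k : ℝ) + 1) ^ 2 ≤ 2 - 1 / ((n : ℝ) + 1) := by
    intro n
    induction n with
    | zero => norm_num
    | succ n ih =>
      rw [sum_range_succ]
      have h2 : (0 : ℝ) < (n : ℝ) + 1 := by positivity
      push_cast
      have h3 : 1 / ((n : ℝ) + 1 + 1) ^ 2 ≤ 1 / ((n : ℝ) + 1) - 1 / ((n : ℝ) + 1 + 1) := by
        rw [div_sub_div _ _ h2.ne' (by positivity), div_le_div_iff₀ (by positivity) (by positivity)]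
        nlinarith
      linarith
  cases n with
  | zero => simp
  | succ n =>
    have h2 := h1 n
    have : 0 < 1 / ((n : ℝ) + 1) := by positivity
    linarith

end Vale.Agent.P097.H226.W
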