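import Vale.Agent.P097.H226.W.PwOf

/-!
# P097 / block (W): `pw_of : Lat → PW`, conclusion
-/

set_option linter.all false

open Complex Metric Filter Topology Set

namespace Vale.Agent.P097.H226.W

open Vale.Agent.P097.TC Vale.Agent.P097.H146

/-- the chain from the one-sided bounds at relative depth `0.01` -/
theorem chain_lat {Λ b : ℝ} {F q : ℂ → ℂ} {al p th : ℂ × ℂ → ℂ} (S : SQ Λ b F q 1 al p th)
    {XL KV r : ℝ} (hXL : 200 ≤ XL) (hKV : 0 ≤ KV) (hr : 0 < r) {n : ℕ}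
    (hn : (XL + 4) * (2 ^ n * r) ≤ 1)
    (hl : ∀ i ≤ n, ∀ z : ℂ × ℂ, 0.01 * (2 ^ i * r) ≤ -z.1.im → 0.01 * (2 ^ i * r) ≤ z.2.im →
      ‖z‖ ≤ XL * (2 ^ i * r) → ∀ sg : ℝ, (sg = 1 ∨ sg = -1) →
      sg * (gg F al th z).re ≤ KV * (1 + max (sg * Vq F al th (2 ^ i * r)) 0)) :
    H128.W.Ch (fun i => Vq F al th (2 ^ (n - i) * r)) (30 * (KV + 1)) 2.1 0 n := by
  apply vch S hKV hr
  · have h2 : 200 * (2 ^ n * r) ≤ (XL + 4) * (2 ^ n * r) := by
      have : 0 < 2 ^ n * r := by positivity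
      gcongr
      linarith
    linarith
  · intro i hi s hs h0 ζ h1 h2
    have hz1 : ‖ln ζ‖ ≤ XL * (2 ^ i * r) := by
      have e1 : ‖ln ζ‖ = ‖ζ‖ := by rw [Prod.norm_def]; simp [ln]
      rw [e1]
      refine h2.trans ?_
      have : 0 < 2 ^ i * r := by positivity
      gcongr
    have h3 := hl i hi (ln ζ) (by simp only [ln, neg_im, neg_neg]; exact h1) h1 hz1 (-s) (by
        rcases hs with rfl | rfl
        · right; rfl
        · left; norm_num)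
    have h4 : max (-s * Vq F al th (2 ^ i * r)) 0 = 0 := max_eq_right (by linarith)
    rw [h4] at h3
    linarith

/-- summation of the octave bounds -/
theorem oct_total {v : ℕ → ℝ} {K N β C1 C2 S ρ A B0 sg r : ℝ} {n : ℕ} (hK : 0 ≤ K) (hβ : 0 < β)
    (hC1 : 0 ≤ C1) (hC2 : 0 ≤ C2) (hS : 0 ≤ S) (hρ : 0 < ρ) (hA : 0 ≤ A) (hB0 : 0 ≤ B0) (hr : 0 < r)
    (hC1' : ∀ l : ℕ, K * (1 / β * ((l : ℝ) + 1) ^ 2) ^ N * (1 / 2) ^ l ≤ C1 * 0.6 ^ l)
    (hC2' : ∀ l : ℕ, Real.exp (K * (1 / β * ((l : ℝ) + 1) ^ 2) ^ ((1 : ℝ) / 4)) * (1 / 2) ^ l ≤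
      C2 * 0.6 ^ l)
    (hsum : ∑ l ∈ Finset.range n, K * (1 / β * ((l : ℝ) + 1) ^ 2) ^ N * (1 / 2) ^ l *
      max (sg * v l) 0 ≤ S) (hn : ρ < 2 ^ (n + 1) * r) {B : ℕ → ℝ} (hB00 : B 0 = B0)
    (hB : ∀ k, B (k + 1) = K * (1 / β * ((k : ℝ) + 1) ^ 2) ^ N * (1 + max (sg * v k) 0) +
      Real.exp (K * (1 / β * ((k : ℝ) + 1) ^ 2) ^ ((1 : ℝ) / 4))) :
    B 0 + 2 * (∑ k ∈ Finset.range n, B (k + 1) * (1 / 2) ^ k + A * (1 / 2) ^ n) ≤
      (B0 + 2 * (C1 * 2.5 + S + C2 * 2.5) + 4 / ρ) +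
        (B0 + 2 * (C1 * 2.5 + S + C2 * 2.5) + 4 / ρ) * r * A := by
  have hs2 : ∑ k ∈ Finset.range n, B (k + 1) * (1 / 2) ^ k ≤ C1 * 2.5 + S + C2 * 2.5 := by
    have e1 : ∀ k ∈ Finset.range n, B (k + 1) * (1 / 2) ^ k =
        K * (1 / β * ((k : ℝ) + 1) ^ 2) ^ N * (1 / 2) ^ k +
        K * (1 / β * ((k : ℝ) + 1) ^ 2) ^ N * (1 / 2) ^ k * max (sg * v k) 0 +
        Real.exp (K * (1 / β * ((k : ℝ) + 1) ^ 2) ^ ((1 : ℝ) / 4)) * (1 / 2) ^ k := by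
      intro k _
      rw [hB]
      ring
    rw [Finset.sum_congr rfl e1, Finset.sum_add_distrib, Finset.sum_add_distrib]
    have h1 : ∑ k ∈ Finset.range n, K * (1 / β * ((k : ℝ) + 1) ^ 2) ^ N * (1 / 2) ^ k ≤ C1 * 2.5 := by
      refine (Finset.sum_le_sum fun k _ => hC1' k).trans ?_
      rw [← Finset.mul_sum]
      have := geo_le n
      gcongr
    have h2 : ∑ k ∈ Finset.range n,
        Real.exp (K * (1 / β * ((k : ℝ) + 1) ^ 2) ^ ((1 : ℝ) / 4)) * (1 / 2) ^ k ≤ C2 * 2.5 := by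
      refine (Finset.sum_le_sum fun k _ => hC2' k).trans ?_
      rw [← Finset.mul_sum]
      have := geo_le n
      gcongr
    linarith
  have hn3 : (1 / 2 : ℝ) ^ n ≤ 2 * r / ρ := by
    rw [one_div, inv_pow, le_div_iff₀ hρ, inv_mul_le_iff₀ (by positivity)]
    rw [pow_succ] at hn
    linarith
  have h3 : A * (1 / 2) ^ n ≤ A * (2 * r / ρ) := by gcongr
  have h7 : 0 ≤ 4 / ρ := by positivity
  have h9 : 0 ≤ B0 + 2 * (C1 * 2.5 + S + C2 * 2.5) := by positivity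
  have h4 : 4 / ρ * r * A ≤ (B0 + 2 * (C1 * 2.5 + S + C2 * 2.5) + 4 / ρ) * r * A := by
    have h5 : 4 / ρ ≤ B0 + 2 * (C1 * 2.5 + S + C2 * 2.5) + 4 / ρ := by linarith
    gcongr
  have h5 : 2 * (A * (2 * r / ρ)) = 4 / ρ * r * A := by ring
  rw [hB00]
  linarith

theorem pw_of (hL : Lat) : PW := by
  intro Λ b F q hcv hgr δ X₀ om e V₁ K₁ hδ hX₀ hom hom1 he hV₁ hK₁ W hW hWs
  obtain ⟨X, hX, β, hβ0, hβ1, hwide⟩ := wide_st hδ hW hWs
  set XL := X + X₀ + 200 with hXL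
  have hXL1 : 1 ≤ XL := by linarith
  obtain ⟨K, hK, N, hN, hlat⟩ := hL hcv hgr (1 / 4) (by norm_num) e XL om he hXL1 hom hom1
  set ρ := 1 / (XL + 4) with hρ
  have hρ0 : 0 < ρ := by positivity
  have hρe : (XL + 4) * ρ = 1 := by rw [hρ]; field_simp
  have hρ1 : ρ ≤ 1 := by
    rw [hρ, div_le_one (by positivity)]
    linarith
  have hρX : ρ * X < 1 := by nlinarith
  clear_value ρ
  obtain ⟨Z, hZc, hZs, hwide⟩ := hwide ρ hρ0 hρX
  set KV := K * (0.01 : ℝ)⁻¹ ^ N with hKV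
  have hKV0 : 0 ≤ KV := by positivity
  clear_value KV
  obtain ⟨C1, hC1, hC1'⟩ := rpow_bound (K := K) (c := 1 / β) (N := N) (by linarith) (by positivity)
    (by linarith)
  obtain ⟨C2, hC2, hC2'⟩ := exp_bound (K := K) (c := 1 / β) (by linarith) (by positivity)
  set S := (K₁ * max (30 * (KV + 1)) V₁ + V₁) * C1 * 2.5 +
    C1 * √(K₁ + 1) * (30 * (KV + 1)) / (1 - 0.6 * √2.1) with hS
  have hS0 : 0 ≤ S := by
    have hsq : 0.6 * √(2.1 : ℝ) < 1 := by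
      have h1 : √(2.1 : ℝ) < 1.5 := by
        rw [Real.sqrt_lt' (by norm_num)]
        norm_num
      linarith
    have h1 : 0 ≤ max (30 * (KV + 1)) V₁ := hV₁.trans (le_max_right _ _)
    have h2 : 0 ≤ C1 * √(K₁ + 1) * (30 * (KV + 1)) / (1 - 0.6 * √2.1) :=
      div_nonneg (by positivity) (by linarith)
    positivity
  clear_value S
  set B0 := K * β⁻¹ ^ N * (1 + V₁) + Real.exp (K * β⁻¹ ^ ((1 : ℝ) / 4)) with hB0
  have hB00 : 0 ≤ B0 := by positivity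
  clear_value B0
  refine ⟨B0 + 2 * (C1 * 2.5 + S + C2 * 2.5) + 4 / ρ, by positivity, ρ, hρ0, hρ1, Z, hZc, hZs, ?_⟩
  intro al p th hSW r hr hrρ hMd hrec sg hsg hsgV A hA hZ z hz
  obtain ⟨n, hn1, hn2⟩ : ∃ n : ℕ, 2 ^ n * r ≤ ρ ∧ ρ < 2 ^ (n + 1) * r := by
    have h1 : (1 : ℝ) ≤ ρ / r := by rwa [le_div_iff₀ hr, one_mul]
    obtain ⟨k, h2, h3⟩ := exists_nat_pow_near h1 one_lt_two
    exact ⟨k, by rwa [le_div_iff₀ hr] at h2, by rwa [div_lt_iff₀ hr] at h3⟩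
  have hpow : ∀ k ≤ n, (2 : ℝ) ^ k * r ≤ ρ := fun k hk => by
    have : (2 : ℝ) ^ k ≤ 2 ^ n := pow_le_pow_right₀ (by norm_num) hk
    nlinarith
  have hXLk : ∀ k ≤ n, (XL + 4) * (2 ^ k * r) ≤ 1 := fun k hk => by
    have := hpow k hk
    rw [← hρe]
    gcongr
  have hMdk : ∀ k ≤ n, Md b F th XL om e (2 ^ k * r) := fun k hk => by
    apply Md_mono (X := X₀) (by linarith) (by positivity)
    apply hMd
    · have : (1 : ℝ) ≤ 2 ^ k := one_le_pow₀ (by norm_num)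
      nlinarith
    · have h1 := hXLk k hk
      have h2 : (X₀ + 4) * (2 ^ k * r) ≤ (XL + 4) * (2 ^ k * r) := by
        have : 0 < 2 ^ k * r := by positivity
        gcongr
        linarith
      linarith
  have hch := chain_lat hSW.sq (XL := XL) (by linarith) hKV0 hr (hXLk n le_rfl) (by
    intro i hi z h1 h2 h3 s hs
    have h4 := (hlat hSW.sq (2 ^ i * r) (by positivity) (hXLk i hi) (hMdk i hi) 0.01 (by norm_num)
      (by norm_num) z h1 h2 h3 s hs).1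
    rw [hKV]
    exact h4)
  have hrec' : ∀ i ≤ n, |Vq F al th (2 ^ i * r)| ≤ K₁ * |Vq F al th (2 ^ 0 * r)| + V₁ := by
    intro i hi
    rw [pow_zero, one_mul]
    exact hrec i (hpow i hi)
  have hsum := sg_sum (v := fun i => Vq F al th (2 ^ i * r))
    (w := fun l => K * (1 / β * ((l : ℝ) + 1) ^ 2) ^ N * (1 / 2) ^ l)
    (C := C1) (sg := sg) hch hK₁ hV₁ hrec' hsg (by simpa using hsgV)
    (fun l => by positivity) hC1'
  rw [← hS] at hsum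
  -- main estimate for a function with lateral bounds
  have key : ∀ f : ℂ × ℂ → ℂ, DifferentiableOn ℂ f (Bx 1 ∩ Wd δ) →
      (∀ h : ℝ, 0 < h → (XL + 4) * h ≤ 1 → Md b F th XL om e h → ∀ ω : ℝ, 0 < ω → ω ≤ 1 →
        ∀ z : ℂ × ℂ, ω * h ≤ -z.1.im → ω * h ≤ z.2.im → ‖z‖ ≤ XL * h →
        ‖f z‖ ≤ Real.exp (K * ω⁻¹ ^ N * (1 + max (sg * Vq F al th h) 0) +
          Real.exp (K * ω⁻¹ ^ ((1 : ℝ) / 4)))) →
      (∀ z ∈ Z, ‖f z‖ ≤ Real.exp A) →
      (r : ℂ) • z ∈ Bx 1 ∧ ‖f ((r : ℂ) • z)‖ ≤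
        Real.exp ((B0 + 2 * (C1 * 2.5 + S + C2 * 2.5) + 4 / ρ) +
          (B0 + 2 * (C1 * 2.5 + S + C2 * 2.5) + 4 / ρ) * r * A) := by
    intro f hf hlf hZf
    set Bk : ℕ → ℝ := fun k => match k with
      | 0 => B0
      | k + 1 => K * (1 / β * ((k : ℝ) + 1) ^ 2) ^ N * (1 + max (sg * Vq F al th (2 ^ k * r)) 0) +
        Real.exp (K * (1 / β * ((k : ℝ) + 1) ^ 2) ^ ((1 : ℝ) / 4)) with hBk
    have hBk0 : ∀ k, 0 ≤ Bk k := by
      intro k
      cases k with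
      | zero => exact hB00
      | succ k =>
        simp only [hBk]
        have : 0 ≤ max (sg * Vq F al th (2 ^ k * r)) 0 := le_max_right _ _
        positivity
    obtain ⟨h1, h2⟩ := hwide f hf r n hr hn1 hn2 Bk A hBk0 hA (by
        intro z h3 h4 h5
        have h6 := hlf r hr (by simpa using hXLk 0 (Nat.zero_le _))
          (by simpa using hMdk 0 (Nat.zero_le _)) β hβ0 hβ1 z h3 h4 (h5.trans (by
            gcongr
            linarith))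
        refine h6.trans (Real.exp_le_exp.mpr ?_)
        have h7 : max (sg * Vq F al th r) 0 ≤ V₁ := max_le hsgV hV₁
        show _ ≤ B0
        rw [hB0]
        gcongr)
      (by
        intro k hk z h3 h4 h5
        have hk1 : (1 : ℝ) ≤ ((k : ℝ) + 1) ^ 2 := one_le_pow₀ (by
          linarith [(Nat.cast_nonneg k : (0 : ℝ) ≤ k)])
        have h6 := hlf (2 ^ k * r) (by positivity) (hXLk k hk.le) (hMdk k hk.le)
          (β / ((k : ℝ) + 1) ^ 2) (by positivity) (by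
            rw [div_le_one (by positivity)]
            linarith) z h3 h4 (h5.trans (by
            gcongr
            linarith))
        refine h6.trans (Real.exp_le_exp.mpr (le_of_eq ?_))
        have e2 : (β / ((k : ℝ) + 1) ^ 2)⁻¹ = 1 / β * ((k : ℝ) + 1) ^ 2 := by
          field_simp
        rw [e2])
      hZf z hz
    refine ⟨h1, h2.trans (Real.exp_le_exp.mpr ?_)⟩
    exact oct_total (v := fun i => Vq F al th (2 ^ i * r)) (K := K) (N := N) (by linarith) hβ0 hC1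
      hC2 hS0 hρ0 hA hB00 hr hC1' hC2' hsum hn2 rfl (fun k => rfl)
  obtain ⟨k1, k2⟩ := key (fun z => exp (sg * I * al z)) (hSW.dal.const_mul (sg * I)).cexp
      (fun h h0 h1 h2 ω h3 h4 z h5 h6 h7 =>
        (hlat hSW.sq h h0 h1 h2 ω h3 h4 z h5 h6 h7 sg hsg).2.1) (fun z hz => (hZ z hz).1)
  obtain ⟨k3, k4⟩ := key (fun z => 2 * p z * exp (sg * I * al z))
      ((hSW.dp.const_mul 2).mul (hSW.dal.const_mul (sg * I)).cexp)
      (fun h h0 h1 h2 ω h3 h4 z h5 h6 h7 =>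
        (hlat hSW.sq h h0 h1 h2 ω h3 h4 z h5 h6 h7 sg hsg).2.2) (fun z hz => (hZ z hz).2)
  exact ⟨k1, k2, k4⟩

end Vale.Agent.P097.H226.W
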