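import Vale.Agent.P097.H226.W.Num
import Vale.Agent.P097.H128.W.Rec

/-!
# P097 / block (W): signed sums at a record
-/

set_option linter.all false

open Finset Filter Topology

namespace Vale.Agent.P097.H226.W

open Vale.Agent.P097.H128.W

theorem sg_sum {v w : ℕ → ℝ} {V0 V₁ K₁ C sg : ℝ} {n : ℕ}
    (h : Ch (fun i => v (n - i)) V0 2.1 0 n) (hK : 1 ≤ K₁) (hV₁ : 0 ≤ V₁)
    (hr : ∀ i ≤ n, |v i| ≤ K₁ * |v 0| + V₁) (hsg : sg = 1 ∨ sg = -1) (h0 : sg * v 0 ≤ V₁)
    (hw0 : ∀ l, 0 ≤ w l) (hw : ∀ l, w l ≤ C * 0.6 ^ l) :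
    ∑ l ∈ range n, w l * max (sg * v l) 0 ≤
      (K₁ * max V0 V₁ + V₁) * C * 2.5 + C * √(K₁ + 1) * V0 / (1 - 0.6 * √2.1) := by
  have hV0 := h.V00
  have hC : 0 ≤ C := by
    have := (hw0 0).trans (hw 0)
    simpa using this
  have hsq : 0.6 * √(2.1 : ℝ) < 1 := by
    have h1 : √(2.1 : ℝ) < 1.5 := by
      rw [Real.sqrt_lt' (by norm_num)]
      norm_num
    linarith
  have habs : ∀ x : ℝ, |sg * x| = |x| := by
    intro x
    rcases hsg with rfl | rfl <;> simp
  have hT : 0 ≤ max V0 V₁ := hV0.le.trans (le_max_left _ _)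
  have p1 : 0 ≤ (K₁ * max V0 V₁ + V₁) * C * 2.5 := by positivity
  have p2 : 0 ≤ C * √(K₁ + 1) * V0 / (1 - 0.6 * √2.1) := div_nonneg (by positivity) (by linarith)
  rcases le_or_gt |v 0| (max V0 V₁) with hA | hB
  · have h1 : ∀ l ∈ range n, w l * max (sg * v l) 0 ≤ (K₁ * max V0 V₁ + V₁) * (C * 0.6 ^ l) := by
      intro l hl
      rw [Finset.mem_range] at hl
      have h2 : max (sg * v l) 0 ≤ K₁ * max V0 V₁ + V₁ := by
        apply max_le _ (by positivity)
        calc sg * v l ≤ |sg * v l| := le_abs_self _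
          _ = |v l| := habs _
          _ ≤ K₁ * |v 0| + V₁ := hr l hl.le
          _ ≤ K₁ * max V0 V₁ + V₁ := by gcongr
      have h3 : 0 ≤ max (sg * v l) 0 := le_max_right _ _
      calc w l * max (sg * v l) 0 ≤ (C * 0.6 ^ l) * (K₁ * max V0 V₁ + V₁) := by
            have := hw l
            have := hw0 l
            gcongr
        _ = _ := by ring
    have h2 := Finset.sum_le_sum h1
    rw [← Finset.mul_sum, ← Finset.mul_sum] at h2
    have h3 := geo_le n
    have h4 : (K₁ * max V0 V₁ + V₁) * (C * ∑ l ∈ range n, (0.6 : ℝ) ^ l) ≤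
        (K₁ * max V0 V₁ + V₁) * (C * 2.5) := by gcongr
    have h5 : (K₁ * max V0 V₁ + V₁) * (C * 2.5) = (K₁ * max V0 V₁ + V₁) * C * 2.5 := by ring
    linarith
  · have hv1 : V₁ < |v 0| := (le_max_right _ _).trans_lt hB
    have hv0 : V0 < |v 0| := (le_max_left _ _).trans_lt hB
    have hs : -(sg * v 0) = |v 0| := by
      rcases abs_cases (sg * v 0) with h1 | h1
      · rw [habs] at h1; linarith [h1.1]
      · rw [habs] at h1; linarith [h1.1]
    have hU : Ch (fun i => -(sg * v (n - i))) V0 2.1 0 n := by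
      rcases hsg with rfl | rfl
      · have := h.neg
        simpa using this
      · simpa using h
    have h1 := rec_sum_bdd (K := K₁ + 1) (ρ := 0.6) (w := w) (C := C) hU (Nat.zero_le _)
      (by linarith) (by simpa [hs] using hv0) (by
        intro i _ hi
        simp only [Nat.sub_self]
        rw [abs_neg, habs, hs]
        have h2 := hr (n - i) (by omega)
        linarith) (by norm_num) hsq hw0 hw
    have h2 : ∑ l ∈ range n, w l * max (sg * v l) 0 ≤
        ∑ l ∈ range (n - 0 + 1), w l * max (-(fun i => -(sg * v (n - i))) (n - l)) 0 := by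
      have h3 : ∀ l ∈ range n, w l * max (sg * v l) 0 =
          w l * max (-(fun i => -(sg * v (n - i))) (n - l)) 0 := by
        intro l hl
        rw [Finset.mem_range] at hl
        have e1 : n - (n - l) = l := by omega
        simp only [e1, neg_neg]
      rw [Finset.sum_congr rfl h3]
      apply Finset.sum_le_sum_of_subset_of_nonneg
      · exact Finset.range_mono (by omega)
      · intro l _ _
        exact mul_nonneg (hw0 l) (le_max_right _ _)
    linarith

end Vale.Agent.P097.H226.W
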