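import Vale.Agent.P097.H226.W.VCh
import Vale.Agent.P097.H226.W.Sum
import Vale.Agent.P097.H146.Half

/-!
# P097 / block (W): `pw_of : Lat → PW`
-/

set_option linter.all false

open Complex Metric Filter Topology Set

namespace Vale.Agent.P097.H226.W

open Vale.Agent.P097.TC Vale.Agent.P097.H146

/-- the cone of heights of the wide tube -/
def Kd (δ : ℝ) : Set (ℝ × ℝ) := {y | 0 < y.2 ∧ y.1 < δ * y.2}

theorem Kd_open (δ : ℝ) : IsOpen (Kd δ) :=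
  (isOpen_lt continuous_const continuous_snd).inter
    (isOpen_lt continuous_fst (continuous_const.mul continuous_snd))

theorem Kd_add {δ : ℝ} : ∀ y ∈ Kd δ, ∀ y' ∈ Kd δ, y + y' ∈ Kd δ := by
  rintro ⟨a, c⟩ ⟨h1, h2⟩ ⟨a', c'⟩ ⟨h3, h4⟩
  simp only at h1 h2 h3 h4
  refine ⟨by show 0 < c + c'; linarith, ?_⟩
  show a + a' < δ * (c + c')
  linarith

theorem Kd_smul {δ : ℝ} : ∀ s : ℝ, 0 < s → ∀ y ∈ Kd δ, s • y ∈ Kd δ := by
  rintro s hs ⟨a, c⟩ ⟨h1, h2⟩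
  simp only at h1 h2
  refine ⟨by show 0 < s * c; positivity, ?_⟩
  show s * a < δ * (s * c)
  have := mul_lt_mul_of_pos_left h2 hs
  linarith

theorem Kd_a {δ : ℝ} (hδ : 0 < δ) : ((-1, 1) : ℝ × ℝ) ∈ Kd δ := by
  refine ⟨one_pos, ?_⟩
  show (-1 : ℝ) < δ * 1
  linarith

theorem mem_Wd_iff {δ : ℝ} {z : ℂ × ℂ} : z ∈ Wd δ ↔ im2 z ∈ Kd δ := Iff.rfl

theorem mem_Bx {z : ℂ × ℂ} (h : ‖z‖ < 1) : z ∈ Bx 1 := by
  have h1 : ‖z.1‖ < 1 := (norm_fst_le z).trans_lt h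
  have h2 : ‖z.2‖ < 1 := (norm_snd_le z).trans_lt h
  exact ⟨(abs_re_le_norm _).trans_lt h1, (abs_im_le_norm _).trans_lt h1,
    (abs_re_le_norm _).trans_lt h2, (abs_im_le_norm _).trans_lt h2⟩

theorem smul_pt (s : ℝ) (y h : ℝ × ℝ) : (s : ℂ) • pt y h = pt (s • y) (s • h) := by
  ext1 <;> simp [pt] <;> ring

theorem norm_a (h : ℝ) : ‖h • ((-1, 1) : ℝ × ℝ)‖ = |h| := by
  rw [norm_smul, Real.norm_eq_abs]
  have : ‖((-1, 1) : ℝ × ℝ)‖ = 1 := by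
    rw [Prod.norm_def]
    simp
  rw [this, mul_one]

theorem Md_mono {b : ℝ} {F : ℂ → ℂ} {th : ℂ × ℂ → ℂ} {X X' om e h : ℝ} (hX : X ≤ X') (hh : 0 ≤ h)
    (H : Md b F th X om e h) : Md b F th X' om e h := by
  obtain ⟨β, h1, h2, h3, h4, h5⟩ := H
  exact ⟨β, h1, h2, h3.trans (by gcongr), h4, h5⟩

/-- the macroscopic compact -/
def Zc (ρ X η : ℝ) (V : Set (ℝ × ℝ)) : Set (ℂ × ℂ) :=
  (fun p : ℝ × (ℝ × ℝ) × ℝ × ℝ × (ℝ × ℝ) =>
    (p.1 : ℂ) • pt p.2.1 (p.2.2.1 • ((-1, 1) : ℝ × ℝ) + p.2.2.2.1 • p.2.2.2.2)) ''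
    (Icc (ρ / 2) ρ ×ˢ closedBall (0 : ℝ × ℝ) X ×ˢ Icc η X ×ˢ Icc (0 : ℝ) 1 ×ˢ V)

theorem Zc_compact {ρ X η : ℝ} {V : Set (ℝ × ℝ)} (hV : IsCompact V) : IsCompact (Zc ρ X η V) := by
  apply IsCompact.image
  · exact isCompact_Icc.prod ((isCompact_closedBall _ _).prod (isCompact_Icc.prod
      (isCompact_Icc.prod hV)))
  · unfold pt
    fun_prop

theorem Zc_sub {ρ X η δ M : ℝ} {V : Set (ℝ × ℝ)} (hV : V ⊆ Kd δ) (hδ : 0 < δ) (hρ : 0 < ρ)
    (hη : 0 < η) (hX : 0 ≤ X) (hM : ∀ v ∈ V, ‖v‖ ≤ M) (hM0 : 0 ≤ M) (hρX : ρ * (2 * X + M) < 1) :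
    Zc ρ X η V ⊆ Bx 1 ∩ Wd δ := by
  rintro _ ⟨⟨R, y, h, t, v⟩, ⟨hR, hy, hh, ht, hv⟩, rfl⟩
  simp only at hR hy hh ht hv ⊢
  rw [mem_closedBall_zero_iff] at hy
  have hR0 : 0 < R := by linarith [hR.1]
  have hh0 : 0 < h := hη.trans_le hh.1
  have hK1 : h • ((-1, 1) : ℝ × ℝ) ∈ Kd δ := Kd_smul h hh0 _ (Kd_a hδ)
  have hK : h • ((-1, 1) : ℝ × ℝ) + t • v ∈ Kd δ := by
    rcases ht.1.eq_or_lt with h0 | h0
    · rw [← h0, zero_smul, add_zero]; exact hK1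
    · exact Kd_add _ hK1 _ (Kd_smul t h0 v (hV hv))
  constructor
  · apply mem_Bx
    rw [norm_smul, Complex.norm_real, Real.norm_eq_abs, abs_of_pos hR0]
    have h1 := norm_pt_le y (h • ((-1, 1) : ℝ × ℝ) + t • v)
    have h2 := norm_add_le (h • ((-1, 1) : ℝ × ℝ)) (t • v)
    rw [norm_a, norm_smul, Real.norm_eq_abs, abs_of_pos hh0, abs_of_nonneg ht.1] at h2
    have h3 : t * ‖v‖ ≤ 1 * M := by
      have := hM v hv
      have := ht.2
      gcongr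
    have h4 : ‖pt y (h • ((-1, 1) : ℝ × ℝ) + t • v)‖ ≤ 2 * X + M := by
      have := hh.2
      linarith
    calc R * ‖pt y (h • ((-1, 1) : ℝ × ℝ) + t • v)‖ ≤ ρ * (2 * X + M) := by
          have := hR.2
          gcongr
      _ < 1 := hρX
  · rw [mem_Wd_iff, smul_pt, im2_pt]
    exact Kd_smul R hR0 _ hK

/-- the profile -/
noncomputable def wp (β : ℝ) (n k : ℕ) : ℝ :=
  β / (8 * ((k : ℝ) + 1) ^ 2) + (if k + 1 = n then β / 4 else 0)

theorem wp_nn {β : ℝ} (hβ : 0 ≤ β) (n k : ℕ) : 0 ≤ wp β n k := by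
  unfold wp
  split_ifs <;> positivity

theorem wp_lb {β : ℝ} (hβ : 0 ≤ β) (n k : ℕ) : β / (8 * ((k : ℝ) + 1) ^ 2) ≤ wp β n k := by
  unfold wp
  split_ifs
  · linarith
  · linarith

theorem wp_last {β : ℝ} (hβ : 0 ≤ β) {n : ℕ} (hn : 0 < n) : β / 4 ≤ wp β n (n - 1) := by
  unfold wp
  rw [if_pos (by omega)]
  have : 0 ≤ β / (8 * (((n - 1 : ℕ) : ℝ) + 1) ^ 2) := by positivity
  linarith

theorem wp_sum {β : ℝ} (hβ : 0 ≤ β) (n : ℕ) : β / 4 + ∑ k ∈ Finset.range n, wp β n k ≤ β := by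
  have h1 : ∑ k ∈ Finset.range n, wp β n k ≤ β / 4 + β / 4 := by
    unfold wp
    rw [Finset.sum_add_distrib]
    apply add_le_add
    · have h2 : ∀ k ∈ Finset.range n, β / (8 * ((k : ℝ) + 1) ^ 2) =
          β / 8 * (1 / ((k : ℝ) + 1) ^ 2) := by
        intro k _
        field_simp
      rw [Finset.sum_congr rfl h2, ← Finset.mul_sum]
      have := sum_sq n
      nlinarith
    · cases n with
      | zero => simp; positivity
      | succ m =>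
        have h2 : ∀ k ∈ Finset.range (m + 1), (if k + 1 = m + 1 then β / 4 else 0) =
            if k = m then β / 4 else 0 := by
          intro k _
          simp
        rw [Finset.sum_congr rfl h2, Finset.sum_ite_eq' (Finset.range (m + 1)) m]
        simp
  linarith

/-- **the geometric part, unit box** -/
theorem wide_st {δ : ℝ} (hδ : 0 < δ) {W : Set (ℂ × ℂ)} (hW : IsCompact W) (hWs : W ⊆ Wd δ) :
    ∃ X : ℝ, 1 ≤ X ∧ ∃ β : ℝ, 0 < β ∧ β ≤ 1 ∧ ∀ ρ : ℝ, 0 < ρ → ρ * X < 1 →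
    ∃ Z : Set (ℂ × ℂ), IsCompact Z ∧ Z ⊆ Bx 1 ∩ Wd δ ∧
    ∀ f : ℂ × ℂ → ℂ, DifferentiableOn ℂ f (Bx 1 ∩ Wd δ) → ∀ (r : ℝ) (n : ℕ), 0 < r →
    2 ^ n * r ≤ ρ → ρ < 2 ^ (n + 1) * r → ∀ (B : ℕ → ℝ) (A : ℝ), (∀ k, 0 ≤ B k) → 0 ≤ A →
    (∀ z : ℂ × ℂ, β * r ≤ -z.1.im → β * r ≤ z.2.im → ‖z‖ ≤ X * r → ‖f z‖ ≤ Real.exp (B 0)) →
    (∀ k < n, ∀ z : ℂ × ℂ, β / ((k : ℝ) + 1) ^ 2 * (2 ^ k * r) ≤ -z.1.im →
      β / ((k : ℝ) + 1) ^ 2 * (2 ^ k * r) ≤ z.2.im → ‖z‖ ≤ X * (2 ^ k * r) →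
      ‖f z‖ ≤ Real.exp (B (k + 1))) →
    (∀ z ∈ Z, ‖f z‖ ≤ Real.exp A) →
    ∀ z ∈ W, (r : ℂ) • z ∈ Bx 1 ∧ ‖f ((r : ℂ) • z)‖ ≤
      Real.exp (B 0 + 2 * (∑ k ∈ Finset.range n, B (k + 1) * (1 / 2) ^ k + A * (1 / 2) ^ n)) := by
  obtain ⟨β₀, hβ₀, X, hX, V, hVc, hVK, hmain⟩ := half_main (Kd_open δ) Kd_add Kd_smul (Kd_a hδ) hW
    (fun z hz => hWs hz)
  obtain ⟨MV₀, hMV₀⟩ := hVc.isBounded.exists_norm_le
  obtain ⟨MW₀, hMW₀⟩ := hW.isBounded.exists_norm_le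
  set MV := max MV₀ 0 with hMV
  set MW := max MW₀ 0 with hMW
  have hMV1 : ∀ v ∈ V, ‖v‖ ≤ MV := fun v hv => (hMV₀ v hv).trans (le_max_left _ _)
  have hMW1 : ∀ v ∈ W, ‖v‖ ≤ MW := fun v hv => (hMW₀ v hv).trans (le_max_left _ _)
  have hMV0 : 0 ≤ MV := le_max_right _ _
  have hMW0 : 0 ≤ MW := le_max_right _ _
  clear_value MV MW
  set β := min β₀ 1 with hβ
  have hβ0 : 0 < β := by positivity
  have hβ1 : β ≤ 1 := min_le_right _ _
  have hββ : β ≤ β₀ := min_le_left _ _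
  clear_value β
  refine ⟨4 * X + MV + MW, by linarith, β / 16, by positivity, by linarith, fun ρ hρ hρX => ?_⟩
  refine ⟨Zc ρ X (β / 16) V, Zc_compact hVc,
    Zc_sub hVK hδ hρ (by positivity) (by linarith) hMV1 hMV0 (by nlinarith), ?_⟩
  intro f hf r n hr hn1 hn2 B A hB hA h0 h1 hZ z hz
  have h2n : (0 : ℝ) < 2 ^ n := by positivity
  have hrρ : r ≤ ρ := by
    have : (1 : ℝ) ≤ 2 ^ n := one_le_pow₀ (by norm_num)
    nlinarith
  refine ⟨?_, ?_⟩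
  · apply mem_Bx
    rw [norm_smul, Complex.norm_real, Real.norm_eq_abs, abs_of_pos hr]
    have h1 := hMW1 z hz
    calc r * ‖z‖ ≤ ρ * MW := by gcongr
      _ < 1 := by nlinarith
  refine hmain n (wp β n) (β / 4) (wp_nn hβ0.le n) (by positivity) ((wp_sum hβ0.le n).trans hββ)
    (fun z => f ((r : ℂ) • z)) ?_ B A hB hA ?_ ?_ ?_ z hz
  · apply hf.comp (by fun_prop)
    intro z hz
    constructor
    · apply mem_Bx
      rw [norm_smul, Complex.norm_real, Real.norm_eq_abs, abs_of_pos hr]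
      calc r * ‖z‖ < r * (4 * X * 2 ^ n) := mul_lt_mul_of_pos_left hz.2 hr
        _ = 4 * X * (2 ^ n * r) := by ring
        _ ≤ 4 * X * ρ := by gcongr
        _ ≤ 1 := by nlinarith
    · rw [mem_Wd_iff]
      have e1 : im2 ((r : ℂ) • z) = r • im2 z := by
        ext1 <;> simp [im2]
      rw [e1]
      exact Kd_smul r hr _ hz.1
  · intro y h hy hh1 hh2
    have hh0 : 0 < h := lt_of_lt_of_le (by positivity) hh1
    apply h0
    · simp [pt]; nlinarith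
    · simp [pt]; nlinarith
    · rw [norm_smul, Complex.norm_real, Real.norm_eq_abs, abs_of_pos hr]
      have h4 := norm_pt_le y (h • ((-1, 1) : ℝ × ℝ))
      rw [norm_a, abs_of_pos hh0] at h4
      have h5 : ‖pt y (h • ((-1, 1) : ℝ × ℝ))‖ ≤ 4 * X + MV + MW := by linarith
      nlinarith
  · intro k hk y h hy hh1 hh2
    have h2k : (0 : ℝ) < 2 ^ k := by positivity
    have hh3 : 2 ^ k * (β / 16 / ((k : ℝ) + 1) ^ 2) ≤ h := by
      refine le_trans ?_ hh1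
      have := wp_lb hβ0.le n k
      have e1 : β / 16 / ((k : ℝ) + 1) ^ 2 = β / (8 * ((k : ℝ) + 1) ^ 2) / 2 := by
        field_simp
        norm_num
      rw [e1]
      have h5 : 2 ^ k * (β / (8 * ((k : ℝ) + 1) ^ 2) / 2) ≤ 2 ^ k * (wp β n k / 2) := by gcongr
      linarith
    have hh0 : 0 < h := lt_of_lt_of_le (by positivity) hh3
    have hh4 : β / 16 / ((k : ℝ) + 1) ^ 2 * (2 ^ k * r) ≤ r * h := by
      have := mul_le_mul_of_nonneg_left hh3 hr.le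
      calc β / 16 / ((k : ℝ) + 1) ^ 2 * (2 ^ k * r) = r * (2 ^ k * (β / 16 / ((k : ℝ) + 1) ^ 2)) := by
            ring
        _ ≤ r * h := this
    apply h1 k hk
    · simpa [pt] using hh4
    · simpa [pt] using hh4
    · rw [norm_smul, Complex.norm_real, Real.norm_eq_abs, abs_of_pos hr]
      have h4 := norm_pt_le y (h • ((-1, 1) : ℝ × ℝ))
      rw [norm_a, abs_of_pos hh0] at h4
      have h5 : ‖pt y (h • ((-1, 1) : ℝ × ℝ))‖ ≤ 4 * X * 2 ^ k := by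
        rw [pow_succ] at hy hh2
        nlinarith
      have h6 : 4 * X * 2 ^ k ≤ (4 * X + MV + MW) * 2 ^ k := by
        gcongr
        linarith
      calc r * ‖pt y (h • ((-1, 1) : ℝ × ℝ))‖ ≤ r * ((4 * X + MV + MW) * 2 ^ k) := by
            gcongr
            exact h5.trans h6
        _ = (4 * X + MV + MW) * (2 ^ k * r) := by ring
  · intro v hv y h t hy hh hc hhX ht0 ht1
    apply hZ
    refine ⟨⟨2 ^ n * r, (2 ^ n : ℝ)⁻¹ • y, h / 2 ^ n, t / 2 ^ n, v⟩, ⟨⟨?_, hn1⟩, ?_, ⟨?_, ?_⟩,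
      ⟨by positivity, ?_⟩, hv⟩, ?_⟩
    · rw [pow_succ] at hn2
      show ρ / 2 ≤ 2 ^ n * r
      linarith
    · rw [mem_closedBall_zero_iff, norm_smul, norm_inv, Real.norm_eq_abs, abs_of_pos h2n,
        inv_mul_le_iff₀ h2n]
      linarith
    · show β / 16 ≤ h / 2 ^ n
      rw [le_div_iff₀ h2n]
      rcases Nat.eq_zero_or_pos n with h0 | h0
      · rw [h0, pow_zero]; linarith
      · have h3 := hh (n - 1) (by omega)
        have h4 := wp_last hβ0.le h0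
        have h5 : (2 : ℝ) ^ n = 2 ^ (n - 1) * 2 := by
          rw [← pow_succ]
          congr 1
          omega
        have h6 : (0 : ℝ) < 2 ^ (n - 1) := by positivity
        rw [h5]
        nlinarith
    · show h / 2 ^ n ≤ X
      rw [div_le_iff₀ h2n]; exact hhX
    · show t / 2 ^ n ≤ 1
      rw [div_le_one h2n]; exact ht1
    · simp only
      rw [smul_pt, smul_pt]
      congr 1
      · rw [smul_smul]
        congr 1
        field_simp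
      · rw [smul_add, smul_add, smul_smul, smul_smul, smul_smul, smul_smul]
        congr 2
        · field_simp
        · field_simp

end Vale.Agent.P097.H226.W
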