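import Vale.Agent.P097.H226.W.Defs
import Vale.Agent.P097.H226.Harn
import Vale.Agent.P097.H128.W.Rec

/-!
# P097 / block (W): the octave values `Vq (2 ^ i * r)` form a chain in the sense of 128's `Ch`
-/

set_option linter.all false

open Complex Metric Filter Topology Set

namespace Vale.Agent.P097.H226.W

open Vale.Agent.P097.TC

/-- sharp Harnack inequality for two points on one radius, other direction -/
theorem harnack_radius' {G : ℂ → ℂ} (hG : DifferentiableOn ℂ G (ball 0 1))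
    (hpos : ∀ z ∈ ball (0 : ℂ) 1, 0 < (G z).re) {a b : ℝ} (ha : 0 ≤ a) (hab : a ≤ b) (hb : b < 1) :
    ((1 + a) * (1 - b)) * (G b).re ≤ ((1 + b) * (1 - a)) * (G a).re := by
  have ha1 : a < 1 := lt_of_le_of_lt hab hb
  have hb0 : 0 ≤ b := ha.trans hab
  have hden : ∀ w ∈ ball (0 : ℂ) 1, 1 + (b : ℂ) * w ≠ 0 := by
    intro w hw h
    rw [mem_ball_zero_iff] at hw
    have h1 : (b : ℂ) * w = -1 := by linear_combination h
    have h2 : ‖(b : ℂ) * w‖ = 1 := by rw [h1]; simp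
    rw [norm_mul, Complex.norm_real, Real.norm_eq_abs, abs_of_nonneg hb0] at h2
    nlinarith [norm_nonneg w]
  set τ : ℂ → ℂ := fun w => (w + b) / (1 + b * w) with hτ
  have hτd : DifferentiableOn ℂ τ (ball 0 1) :=
    (differentiableOn_id.add (differentiableOn_const _)).div
      ((differentiableOn_const _).add ((differentiableOn_const _).mul differentiableOn_id)) hden
  have hτm : MapsTo τ (ball 0 1) (ball 0 1) := by
    intro w hw
    have hw1 : ‖w‖ < 1 := mem_ball_zero_iff.mp hw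
    rw [mem_ball_zero_iff, hτ]
    simp only
    have h1 : 0 < ‖1 + (b : ℂ) * w‖ := norm_pos_iff.mpr (hden w hw)
    rw [norm_div, div_lt_one h1]
    have h2 : ‖1 + (b : ℂ) * w‖ ^ 2 - ‖w + b‖ ^ 2 = (1 - b ^ 2) * (1 - ‖w‖ ^ 2) := by
      rw [← Complex.normSq_eq_norm_sq, ← Complex.normSq_eq_norm_sq, ← Complex.normSq_eq_norm_sq,
        normSq_apply, normSq_apply, normSq_apply]
      simp only [add_re, add_im, mul_re, mul_im, ofReal_re, ofReal_im, one_re, one_im]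
      ring
    have h3 : 0 < (1 - b ^ 2) * (1 - ‖w‖ ^ 2) := by
      have := norm_nonneg w
      apply mul_pos <;> nlinarith
    nlinarith [norm_nonneg (w + (b : ℂ))]
  set c : ℝ := (b - a) / (1 - a * b) with hcdef
  have hab1 : 0 < 1 - a * b := by nlinarith
  have hc0 : 0 ≤ c := div_nonneg (by linarith) hab1.le
  have hc1 : c < 1 := by
    rw [hcdef, div_lt_one hab1]
    nlinarith
  have hcb : (-(c : ℂ)) ∈ ball (0 : ℂ) 1 := by
    rw [mem_ball_zero_iff, norm_neg, Complex.norm_real, Real.norm_eq_abs, abs_of_nonneg hc0]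
    exact hc1
  have hτ0 : τ 0 = b := by simp [hτ]
  have hcm : c * (1 - a * b) = b - a := div_mul_cancel₀ _ hab1.ne'
  have hτc : τ (-(c : ℂ)) = a := by
    have h2 : 1 + (b : ℂ) * (-(c : ℂ)) ≠ 0 := hden _ hcb
    simp only [hτ]
    rw [div_eq_iff h2]
    have h3 : (c : ℂ) * (1 - (a : ℂ) * b) = b - a := by exact_mod_cast hcm
    linear_combination (-1 : ℂ) * h3
  have h := harnack_centre (H := fun w => G (τ w)) (hG.comp hτd hτm)
    (fun w hw => hpos _ (hτm hw)) hcb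
  simp only [hτ0, hτc] at h
  rw [norm_neg, Complex.norm_real, Real.norm_eq_abs, abs_of_nonneg hc0] at h
  have e1 : 1 - c = (1 + a) * (1 - b) / (1 - a * b) := by
    rw [eq_div_iff hab1.ne']; linear_combination (-1 : ℝ) * hcm
  have e2 : 1 + c = (1 + b) * (1 - a) / (1 - a * b) := by
    rw [eq_div_iff hab1.ne']; linear_combination hcm
  rw [e1, e2, div_mul_eq_mul_div, div_mul_eq_mul_div, div_le_div_iff_of_pos_right hab1] at h
  exact h

/-- sharp Harnack per octave in a half plane, both directions -/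
theorem harn2 {H : ℂ → ℂ} {h : ℝ} (hh : 0 < h)
    (hd : DifferentiableOn ℂ H (ball ((100 * h : ℝ) * I) (99.99 * h)))
    (hp : ∀ z ∈ ball (((100 * h : ℝ) : ℂ) * I) (99.99 * h), 0 < (H z).re) :
    (H ((h : ℂ) * I)).re ≤ 2.03 * (H (((h / 2 : ℝ) : ℂ) * I)).re ∧
      (H (((h / 2 : ℝ) : ℂ) * I)).re ≤ 2.03 * (H ((h : ℂ) * I)).re := by
  set G : ℂ → ℂ := fun w => H ((h : ℂ) * (100 * I - 99.99 * I * w)) with hG
  have hmaps : MapsTo (fun w : ℂ => (h : ℂ) * (100 * I - 99.99 * I * w)) (ball 0 1)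
      (ball (((100 * h : ℝ) : ℂ) * I) (99.99 * h)) := by
    intro w hw
    rw [mem_ball_zero_iff] at hw
    rw [mem_ball, dist_eq_norm]
    have e1 : (h : ℂ) * (100 * I - 99.99 * I * w) - ((100 * h : ℝ) : ℂ) * I =
        -((h : ℂ) * ((99.99 : ℝ) * (I * w))) := by
      push_cast; ring
    rw [e1, norm_neg, norm_mul, norm_mul, norm_mul, Complex.norm_I, Complex.norm_real,
      Complex.norm_real, Real.norm_eq_abs, Real.norm_eq_abs, abs_of_pos hh,
      abs_of_pos (by norm_num : (0:ℝ) < 99.99)]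
    nlinarith
  have hGd : DifferentiableOn ℂ G (ball 0 1) := hd.comp (by fun_prop) hmaps
  have hGp : ∀ z ∈ ball (0 : ℂ) 1, 0 < (G z).re := fun z hz => hp _ (hmaps hz)
  have h1 := harnack_radius hGd hGp (a := 99 / 99.99) (b := 99.5 / 99.99) (by norm_num)
    (by norm_num) (by norm_num)
  have h2 := harnack_radius' hGd hGp (a := 99 / 99.99) (b := 99.5 / 99.99) (by norm_num)
    (by norm_num) (by norm_num)
  have ea : (h : ℂ) * (100 * I - 99.99 * I * ((99 / 99.99 : ℝ) : ℂ)) = h * I := by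
    push_cast
    ring_nf
  have eb : (h : ℂ) * (100 * I - 99.99 * I * ((99.5 / 99.99 : ℝ) : ℂ)) = ((h / 2 : ℝ) : ℂ) * I := by
    push_cast
    ring_nf
  simp only [hG, ea, eb] at h1 h2
  have k1 : 0 < (H ((h : ℂ) * I)).re := by
    have := hGp ((99 / 99.99 : ℝ) : ℂ) (by
      rw [mem_ball_zero_iff, Complex.norm_real, Real.norm_eq_abs]; norm_num)
    simp only [hG, ea] at this
    exact this
  have k2 : 0 < (H (((h / 2 : ℝ) : ℂ) * I)).re := by
    have := hGp ((99.5 / 99.99 : ℝ) : ℂ) (by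
      rw [mem_ball_zero_iff, Complex.norm_real, Real.norm_eq_abs]; norm_num)
    simp only [hG, eb] at this
    exact this
  norm_num at h1 h2 ⊢
  constructor <;> nlinarith

variable {Λ b : ℝ} {F q : ℂ → ℂ} {al p th : ℂ × ℂ → ℂ}

/-- the complex line through the axis -/
noncomputable def ln (ζ : ℂ) : ℂ × ℂ := (-ζ, ζ)

theorem ln_mem {ζ : ℂ} (h0 : 0 < ζ.im) (h1 : ‖ζ‖ < 1) : ln ζ ∈ Bx 1 ∩ Qu := by
  have hr := (Complex.abs_re_le_norm ζ).trans_lt h1
  have hi := (Complex.abs_im_le_norm ζ).trans_lt h1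
  refine ⟨⟨?_, ?_, ?_, ?_⟩, ?_, ?_⟩ <;> simp only [ln, neg_re, neg_im, abs_neg] <;>
    first | assumption | linarith

theorem gg_diff (S : SQ Λ b F q 1 al p th) : DifferentiableOn ℂ (gg F al th) (Bx 1 ∩ Qu) := by
  have h1 : DifferentiableOn ℂ (fun z => F (th z)) (Bx 1 ∩ Qu) :=
    S.cv.dF.comp S.dth fun z hz => S.mem z hz
  exact (S.dal.sub h1).const_mul (2 * I)

/-- **one octave** : from the one-sided bounds -/
theorem octave_st (S : SQ Λ b F q 1 al p th) {h K₁ : ℝ} (hh : 0 < h) (h1 : 200 * h ≤ 1)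
    {sg : ℝ} (hK : ∀ ζ : ℂ, 0.01 * h ≤ ζ.im → ‖ζ‖ ≤ 200 * h → -K₁ ≤ sg * (gg F al th (ln ζ)).re) :
    sg * Vq F al th h + (K₁ + 1) ≤ 2.03 * (sg * Vq F al th (h / 2) + (K₁ + 1)) ∧
    sg * Vq F al th (h / 2) + (K₁ + 1) ≤ 2.03 * (sg * Vq F al th h + (K₁ + 1)) ∧
    -K₁ ≤ sg * Vq F al th (h / 2) := by
  have hball : ∀ ζ ∈ ball (((100 * h : ℝ) : ℂ) * I) (99.99 * h), 0.01 * h ≤ ζ.im ∧ ‖ζ‖ < 200 * h := by
    intro ζ hζ
    rw [mem_ball, dist_eq_norm] at hζ
    have e1 : ‖(((100 * h : ℝ) : ℂ) * I)‖ = 100 * h := by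
      rw [norm_mul, Complex.norm_I, mul_one, Complex.norm_real, Real.norm_eq_abs,
        abs_of_pos (by positivity)]
    constructor
    · have h2 := (Complex.abs_im_le_norm (ζ - ((100 * h : ℝ) : ℂ) * I)).trans hζ.le
      have h3 : (ζ - ((100 * h : ℝ) : ℂ) * I).im = ζ.im - 100 * h := by simp
      rw [h3, abs_le] at h2
      linarith [h2.1]
    · have h2 : ‖ζ‖ ≤ ‖ζ - ((100 * h : ℝ) : ℂ) * I‖ + ‖(((100 * h : ℝ) : ℂ) * I)‖ := by
        have := norm_add_le (ζ - ((100 * h : ℝ) : ℂ) * I) (((100 * h : ℝ) : ℂ) * I)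
        simpa using this
      rw [e1] at h2
      linarith
  have hd : DifferentiableOn ℂ (fun ζ => (sg : ℂ) * gg F al th (ln ζ) + ((K₁ + 1 : ℝ) : ℂ))
      (ball (((100 * h : ℝ) : ℂ) * I) (99.99 * h)) := by
    have h2 : DifferentiableOn ℂ ln (ball (((100 * h : ℝ) : ℂ) * I) (99.99 * h)) := by
      unfold ln; fun_prop
    have h3 := (gg_diff S).comp h2 (fun ζ hζ => ln_mem (by
      have := (hball ζ hζ).1
      have : 0 < 0.01 * h := by positivity
      linarith) ((hball ζ hζ).2.trans_le h1))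
    exact (h3.const_mul (sg : ℂ)).add_const _
  have hp : ∀ ζ ∈ ball (((100 * h : ℝ) : ℂ) * I) (99.99 * h),
      0 < ((sg : ℂ) * gg F al th (ln ζ) + ((K₁ + 1 : ℝ) : ℂ)).re := by
    intro ζ hζ
    have h2 := hK ζ (hball ζ hζ).1 (hball ζ hζ).2.le
    rw [add_re, re_ofReal_mul, ofReal_re]
    linarith
  obtain ⟨k1, k2⟩ := harn2 hh hd hp
  have hV : ∀ t : ℝ, ((sg : ℂ) * gg F al th (ln ((t : ℂ) * I)) + ((K₁ + 1 : ℝ) : ℂ)).re =
      sg * Vq F al th t + (K₁ + 1) := by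
    intro t
    rw [add_re, re_ofReal_mul, ofReal_re]
    rfl
  rw [hV, hV] at k1 k2
  refine ⟨k1, k2, ?_⟩
  have h3 := hK (((h / 2 : ℝ) : ℂ) * I) (by
    have : ((((h / 2 : ℝ) : ℂ) * I)).im = h / 2 := by simp
    rw [this]; linarith) (by
    rw [norm_mul, Complex.norm_I, mul_one, Complex.norm_real, Real.norm_eq_abs,
      abs_of_pos (by positivity)]
    linarith)
  exact h3

/-- **the octave values form a chain** -/
theorem vch (S : SQ Λ b F q 1 al p th) {K₁ r : ℝ} (hK₁ : 0 ≤ K₁) (hr : 0 < r) {n : ℕ}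
    (hn : 200 * (2 ^ n * r) ≤ 1)
    (hK : ∀ i ≤ n, ∀ sg : ℝ, (sg = 1 ∨ sg = -1) → 0 ≤ sg * Vq F al th (2 ^ i * r) → ∀ ζ : ℂ,
      0.01 * (2 ^ i * r) ≤ ζ.im → ‖ζ‖ ≤ 200 * (2 ^ i * r) → -K₁ ≤ sg * (gg F al th (ln ζ)).re) :
    H128.W.Ch (fun i => Vq F al th (2 ^ (n - i) * r)) (30 * (K₁ + 1)) 2.1 0 n := by
  have key : ∀ i < n, ∃ sg : ℝ, (sg = 1 ∨ sg = -1) ∧ 0 ≤ sg * Vq F al th (2 ^ (n - i) * r) ∧
      sg * Vq F al th (2 ^ (n - i) * r) + (K₁ + 1) ≤
        2.03 * (sg * Vq F al th (2 ^ (n - (i + 1)) * r) + (K₁ + 1)) ∧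
      sg * Vq F al th (2 ^ (n - (i + 1)) * r) + (K₁ + 1) ≤
        2.03 * (sg * Vq F al th (2 ^ (n - i) * r) + (K₁ + 1)) ∧
      -K₁ ≤ sg * Vq F al th (2 ^ (n - (i + 1)) * r) := by
    intro i hi
    obtain ⟨sg, hsg, hsg0⟩ : ∃ sg : ℝ, (sg = 1 ∨ sg = -1) ∧
        0 ≤ sg * Vq F al th (2 ^ (n - i) * r) := by
      rcases le_total 0 (Vq F al th (2 ^ (n - i) * r)) with h | h
      · exact ⟨1, Or.inl rfl, by linarith⟩
      · exact ⟨-1, Or.inr rfl, by linarith⟩
    have h1 : 200 * (2 ^ (n - i) * r) ≤ 1 := by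
      refine le_trans ?_ hn
      have : (2 : ℝ) ^ (n - i) ≤ 2 ^ n := pow_le_pow_right₀ (by norm_num) (by omega)
      gcongr
    have h2 := octave_st S (h := 2 ^ (n - i) * r) (by positivity) h1 (sg := sg)
      (hK (n - i) (by omega) sg hsg hsg0)
    have e1 : 2 ^ (n - i) * r / 2 = 2 ^ (n - (i + 1)) * r := by
      have e2 : n - i = (n - (i + 1)) + 1 := by omega
      rw [e2, pow_succ]
      ring
    rw [e1] at h2
    exact ⟨sg, hsg, hsg0, h2⟩
  refine ⟨by positivity, by norm_num, ?_, ?_, ?_, ?_⟩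
  · intro i _ hi
    obtain ⟨sg, hsg, h0, h1, h2, h3⟩ := key i hi
    set x := Vq F al th (2 ^ (n - i) * r)
    set y := Vq F al th (2 ^ (n - (i + 1)) * r)
    have m1 : |y| ≤ max |y| (30 * (K₁ + 1)) := le_max_left _ _
    have m2 : 30 * (K₁ + 1) ≤ max |y| (30 * (K₁ + 1)) := le_max_right _ _
    have m3 := le_abs_self y
    have m4 := neg_abs_le y
    rcases hsg with rfl | rfl
    · rw [abs_of_nonneg (show 0 ≤ x by linarith)]
      linarith
    · rw [abs_of_nonpos (show x ≤ 0 by linarith)]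
      linarith
  · intro i _ hi
    obtain ⟨sg, hsg, h0, h1, h2, h3⟩ := key i hi
    set x := Vq F al th (2 ^ (n - i) * r)
    set y := Vq F al th (2 ^ (n - (i + 1)) * r)
    have m1 : |x| ≤ max |x| (30 * (K₁ + 1)) := le_max_left _ _
    have m2 : 30 * (K₁ + 1) ≤ max |x| (30 * (K₁ + 1)) := le_max_right _ _
    have m3 := le_abs_self x
    have m4 := neg_abs_le x
    rw [abs_le]
    rcases hsg with rfl | rfl
    · constructor <;> linarith
    · constructor <;> linarith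
  · intro i _ hi h4
    obtain ⟨sg, hsg, h0, h1, h2, h3⟩ := key i hi
    rcases hsg with rfl | rfl
    · linarith
    · linarith
  · intro i _ hi h4
    obtain ⟨sg, hsg, h0, h1, h2, h3⟩ := key i hi
    rcases hsg with rfl | rfl
    · linarith
    · linarith

end Vale.Agent.P097.H226.W
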